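import Vale.Agent.P032.Final

/-! P032: colourings of the unit-distance graph over subfields of `ℝ` with suitable places. -/

namespace Vale.Agent.Results.P032.Places

open Vale.Agent.P032

theorem result (K : Subfield ℝ) :
    -- number fields of odd degree
    (FiniteDimensional ℚ K → Odd (Module.finrank ℚ K) → (planeGraph K).Colorable 2) ∧
    -- transfer to the residue plane of a place with `-1` not a square in the residue field
    (∀ A : ValuationSubring K, ¬ IsSquare (-1 : IsLocalRing.ResidueField A) → ∀ n : ℕ,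
      (fieldGraph (IsLocalRing.ResidueField A)).Colorable n → (planeGraph K).Colorable n) ∧
    ∀ (Γ₀ : Type) [LinearOrderedCommGroupWithZero Γ₀],
    -- places of `K`
    (∀ v : Valuation K Γ₀,
      (v 2 < 1 → ¬ IsSquare (v 2) → (planeGraph K).Colorable 2) ∧
      ((∀ z : K, v z ≤ 1 → ∃ n : ℤ, v (z - n) < 1) →
        (v 3 < 1 → (planeGraph K).Colorable 3) ∧
        (v 7 < 1 → (planeGraph K).Colorable 4) ∧
        (v 11 < 1 → (planeGraph K).Colorable 5) ∧
        (v 19 < 1 → (planeGraph K).Colorable 5))) ∧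
    -- places of `L = K(i)` invariant under complex conjugation
    (∀ L : Subfield ℂ, (∀ z : ℂ, z ∈ L ↔ z.re ∈ K ∧ z.im ∈ K) → ∀ w : Valuation L Γ₀,
      (∀ z z' : L, (z' : ℂ) = (starRingEnd ℂ) (z : ℂ) → w z' = w z) →
      (w 2 < 1 → (∀ z z' : L, (z' : ℂ) = (starRingEnd ℂ) (z : ℂ) → w z ≤ 1 → w (z - z') < 1) →
        (planeGraph K).Colorable 2) ∧
      ∀ (q : ℕ) (r : Fin q → L), (∀ z : L, w z ≤ 1 → ∃ i, w (z - r i) < 1) →
        (planeGraph K).Colorable q) := by
  refine ⟨fun h1 h2 => by have := h1; exact col_nf K h2,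
    fun A hA n hn => transfer K A hA n hn, ?_⟩
  intro Γ₀ _
  refine ⟨fun v => ⟨fun h2 h3 => col_two K v h2 h3, fun hres => ⟨?_, ?_, ?_, ?_⟩⟩, ?_⟩
  · intro h
    exact col_p K v 3 3 (by exact_mod_cast h) hres nsq3 (lin 3 3 dec3)
  · intro h
    exact col_p K v 7 4 (by exact_mod_cast h) hres nsq7 (lin 7 4 dec7)
  · intro h
    exact col_p K v 11 5 (by exact_mod_cast h) hres nsq11 ⟨col11, dec11b⟩
  · intro h
    exact col_p K v 19 5 (by exact_mod_cast h) hres nsq19 ⟨col19, dec19⟩
  · intro L hL w hw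
    refine ⟨fun h2 hres => ?_, fun q r hres => ?_⟩
    · obtain ⟨c, hc⟩ := rami K L hL w hw h2 hres
      exact bridge K 2 c hc
    · obtain ⟨c, hc⟩ := conj_val K L hL w hw q r hres
      exact bridge K q c hc

end Vale.Agent.Results.P032.Places
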